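import Mathlib
import Vale.Agent.Lib.P295.Chain
import Vale.Agent.Lib.P295.Quad
import Vale.Agent.Lib.P295.Auto
import Vale.Agent.Lib.P295.Ridge

namespace Vale.Agent.Results.P295.QuadraticPlusRidge

open MvPolynomial Vale.Agent.Lib.P295

/-- Every stable coordinate of `ℂ[x_1, …, x_n]` of the form `q + p(a_1 x_1 + ⋯ + a_n x_n)`, with
`q` of total degree at most two and `p` an arbitrary polynomial in one variable, is a
coordinate. -/
theorem result (n m : ℕ) (q : MvPolynomial (Fin n) ℂ) (hdeg : q.totalDegree ≤ 2)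
    (a : Fin n → ℂ) (p : Polynomial ℂ)
    (hstab : ∃ φ : MvPolynomial (Fin n ⊕ Fin m) ℂ ≃ₐ[ℂ] MvPolynomial (Fin n ⊕ Fin m) ℂ,
      ∃ j : Fin n ⊕ Fin m,
        φ (X j) = rename Sum.inl (q + Polynomial.aeval (∑ i, C (a i) * X i) p)) :
    ∃ ψ : MvPolynomial (Fin n) ℂ ≃ₐ[ℂ] MvPolynomial (Fin n) ℂ, ∃ i : Fin n,
      ψ (X i) = q + Polynomial.aeval (∑ i, C (a i) * X i) p := by
  obtain ⟨φ, j, hφ⟩ := hstab
  set f : MvPolynomial (Fin n) ℂ := q + Polynomial.aeval (∑ i, C (a i) * X i) p with hf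
  have hgrad : ∀ x : Fin n → ℂ, ∃ i, eval x (pderiv i f) ≠ 0 := by
    intro x
    obtain ⟨k, hk⟩ := exists_pderiv_eval_ne_zero φ j _ hφ (Sum.elim x (fun _ => 0))
    rcases k with i | t
    · refine ⟨i, ?_⟩
      rw [pderiv_rename Sum.inl_injective, eval_rename] at hk
      exact hk
    · exfalso
      apply hk
      have hnot : Sum.inr t ∉ (rename (Sum.inl : Fin n → Fin n ⊕ Fin m) f).vars := by
        intro hmem
        obtain ⟨i, -, hi⟩ := mem_vars_rename _ _ hmem
        exact Sum.inl_ne_inr hi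
      rw [pderiv_eq_zero_of_notMem_vars hnot, map_zero]
  obtain ⟨v, hv⟩ := exists_const_direction_ridge q hdeg a p hgrad
  exact exists_equiv_of_const_direction f v hv

end Vale.Agent.Results.P295.QuadraticPlusRidge
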